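import Mathlib

/-!
# Braid relations in small dimension

Elementary lemmas on endomorphisms with the braid relations.
-/

namespace Vale.Agent.P002.R2.H543

open Module

universe u v

/-- commuting elements with the braid relation are equal -/
theorem eq_of_commute {K : Type u} [Field K] {V : Type v} [AddCommGroup V] [Module K V]
    {x y : Module.End K V} (hx : Function.Injective x) (hy : Function.Injective y)
    (hc : x * y = y * x) (hb : x * y * x = y * x * y) : x = y := by
  have h1 : x * y * (x - y) = 0 := by
    rw [mul_sub, hb, mul_assoc x y y]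
    have : x * (y * y) = y * x * y := by
      rw [← mul_assoc, hc]
    rw [this, sub_self]
  have h2 : x - y = 0 := by
    refine LinearMap.ext fun w => ?_
    have h3 : x (y ((x - y) w)) = 0 := by
      have := LinearMap.congr_fun h1 w
      simpa using this
    have h4 : y ((x - y) w) = 0 := hx (by rw [h3, map_zero])
    have h5 : (x - y) w = 0 := hy (by rw [h4, map_zero])
    rw [h5]
    rfl
  exact sub_eq_zero.1 h2

/-- three elements which agree on `W` and modulo `W` -/
theorem eq_of_agree {K : Type u} [Field K] {V : Type v} [AddCommGroup V] [Module K V]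
    (W : Submodule K V) {x y z : Module.End K V} (hz : Function.Injective z)
    (hxz : x * z = z * x) (hyz : y * z = z * y) (hb : x * y * x = y * x * y)
    (h1 : ∀ w ∈ W, x w = z w) (h2 : ∀ w ∈ W, y w = z w)
    (h3 : ∀ w, x w - z w ∈ W) (h4 : ∀ w, y w - z w ∈ W) : x = y := by
  obtain ⟨p, rfl⟩ : ∃ p, x = z + p := ⟨x - z, by abel⟩
  obtain ⟨q, rfl⟩ : ∃ q, y = z + q := ⟨y - z, by abel⟩
  have k1 : ∀ w ∈ W, p w = 0 := fun w hw => by simpa using h1 w hw
  have k2 : ∀ w ∈ W, q w = 0 := fun w hw => by simpa using h2 w hw
  have k3 : ∀ w, p w ∈ W := fun w => by simpa using h3 w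
  have k4 : ∀ w, q w ∈ W := fun w => by simpa using h4 w
  have pz : p * z = z * p := by
    have := hxz
    rw [add_mul, mul_add] at this
    exact add_left_cancel this
  have qz : q * z = z * q := by
    have := hyz
    rw [add_mul, mul_add] at this
    exact add_left_cancel this
  have pp : p * p = 0 := LinearMap.ext fun w => k1 _ (k3 w)
  have pq : p * q = 0 := LinearMap.ext fun w => k1 _ (k4 w)
  have qp : q * p = 0 := LinearMap.ext fun w => k2 _ (k3 w)
  have qq : q * q = 0 := LinearMap.ext fun w => k2 _ (k4 w)
  have e1 : (z + p) * (z + q) * (z + p) = z * z * z + z * z * (p + q + p) := by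
    have : (z + p) * (z + q) * (z + p) = z * z * z + z * z * p + z * (q * z) + z * (q * p) +
        p * z * z + p * z * p + p * q * z + p * q * p := by noncomm_ring
    rw [this, qp, pq, qz, pz, mul_assoc z p z, pz, mul_assoc z p p, pp]
    noncomm_ring
  have e2 : (z + q) * (z + p) * (z + q) = z * z * z + z * z * (q + p + q) := by
    have : (z + q) * (z + p) * (z + q) = z * z * z + z * z * q + z * (p * z) + z * (p * q) +
        q * z * z + q * z * q + q * p * z + q * p * q := by noncomm_ring
    rw [this, qp, pq, qz, pz, mul_assoc z q z, qz, mul_assoc z q q, qq]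
    noncomm_ring
  rw [e1, e2] at hb
  have h5 : z * z * (p - q) = 0 := by
    have h6 := add_left_cancel hb
    have : z * z * (p - q) = z * z * (p + q + p) - z * z * (q + p + q) := by noncomm_ring
    rw [this, h6, sub_self]
  have h7 : p = q := by
    refine sub_eq_zero.1 (LinearMap.ext fun w => ?_)
    have h8 : z (z ((p - q) w)) = 0 := by simpa using LinearMap.congr_fun h5 w
    have h9 : z ((p - q) w) = 0 := hz (by rw [h8, map_zero])
    have h10 : (p - q) w = 0 := hz (by rw [h9, map_zero])
    rw [h10]
    rfl
  rw [h7]

/-- The braid relations: for all indices `i + 2 ≤ j` the elements commute, and the first `m`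
elements satisfy the relations of neighbours. -/
structure Br {K : Type u} [Field K] {V : Type v} [AddCommGroup V] [Module K V]
    (a : ℕ → Module.End K V) (m : ℕ) : Prop where
  inj : ∀ i, Function.Injective (a i)
  far : ∀ i j, i + 2 ≤ j → a i * a j = a j * a i
  near : ∀ i, i + 1 < m → a i * a (i + 1) * a i = a (i + 1) * a i * a (i + 1)

theorem Br.step_up {K : Type u} [Field K] {V : Type v} [AddCommGroup V] [Module K V]
    {a : ℕ → Module.End K V} {m : ℕ} (h : Br a m) {k : ℕ} (hk : a k = a (k + 1))
    (hm : k + 2 < m) : a (k + 1) = a (k + 2) :=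
  eq_of_commute (h.inj _) (h.inj _) (by rw [← hk]; exact h.far k (k + 2) le_rfl)
    (h.near (k + 1) hm)

theorem Br.step_down {K : Type u} [Field K] {V : Type v} [AddCommGroup V] [Module K V]
    {a : ℕ → Module.End K V} {m : ℕ} (h : Br a m) {k : ℕ} (hk : a (k + 1) = a (k + 2))
    (hm : k + 1 < m) : a k = a (k + 1) :=
  eq_of_commute (h.inj _) (h.inj _) (by rw [hk]; exact h.far k (k + 2) le_rfl) (h.near k hm)

theorem Br.all {K : Type u} [Field K] {V : Type v} [AddCommGroup V] [Module K V]
    {a : ℕ → Module.End K V} {m : ℕ} (h : Br a m) {k : ℕ} (hk : a k = a (k + 1))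
    (hm : k + 1 < m) : ∀ i, i + 1 < m → a i = a (i + 1) := by
  have up : ∀ n, k + n + 1 < m → a (k + n) = a (k + n + 1) := by
    intro n
    induction n with
    | zero => intro _; exact hk
    | succ n ih => intro hn; exact h.step_up (ih (by omega)) (by omega)
  have down : ∀ n, n ≤ k → a (k - n) = a (k - n + 1) := by
    intro n
    induction n with
    | zero => intro _; exact hk
    | succ n ih =>
      intro hn
      have h1 := ih (by omega)
      have h2 : k - n = k - (n + 1) + 1 := by omega
      rw [h2] at h1
      exact h.step_down h1 (by omega)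
  intro i hi
  rcases le_total k i with hki | hki
  · obtain ⟨n, rfl⟩ := Nat.exists_eq_add_of_le hki
    exact up n hi
  · have h1 := down (k - i) (by omega)
    have h2 : k - (k - i) = i := by omega
    rwa [h2] at h1

end Vale.Agent.P002.R2.H543
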