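import Vale.Agent.P002.R2.H543.Small

/-!
# Chains of braid generators in a group and its linear representations
-/

namespace Vale.Agent.P002.R2.H543

open Matrix Module

/-- The braid relations for `s 0, …, s (m - 1)`. -/
structure IsBraidChain {G : Type*} [Group G] {m : ℕ} (s : Fin m → G) : Prop where
  near : ∀ i j : Fin m, (i : ℕ) + 1 = j → s i * s j * s i = s j * s i * s j
  far : ∀ i j : Fin m, (i : ℕ) + 2 ≤ j → s i * s j = s j * s i

/-- The chain is co-central: the group is generated by elements each of which commutes with some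
element of the chain. -/
def GeneratedByCommuting {G : Type*} [Group G] {m : ℕ} (s : Fin m → G) : Prop :=
  Subgroup.closure {t : G | ∃ i, t * s i = s i * t} = ⊤

/-- The quotient by the normal closure of the chain is virtually solvable. -/
def VirtSolvableQuotient {G : Type*} [Group G] {m : ℕ} (s : Fin m → G) : Prop :=
  ∃ H : Subgroup (G ⧸ Subgroup.normalClosure (Set.range s)),
    Group.IsSolvable H ∧ H.FiniteIndex

theorem const_of_chain_closed {K : Type*} [Field K] [IsAlgClosed K] {G : Type*} [Group G]
    {m r : ℕ} {s : Fin m → G} (hs : IsBraidChain s) (hr : r + 2 ≤ m)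
    (ρ : G →* GL (Fin r) K) (i j : Fin m) : ρ (s i) = ρ (s j) := by
  let φ : G → Module.End K (Fin r → K) := fun g => Matrix.toLin' (ρ g : Matrix (Fin r) (Fin r) K)
  have φmul : ∀ g h, φ (g * h) = φ g * φ h := fun g h => by
    simp only [φ, map_mul, Units.val_mul, Matrix.toLin'_mul]
    rfl
  have φone : φ 1 = 1 := by
    simp only [φ, map_one, Units.val_one, Matrix.toLin'_one]
    rfl
  have φinj : ∀ g, Function.Injective (φ g) := by
    intro g x y hxy
    have h1 : φ g⁻¹ * φ g = 1 := by rw [← φmul, inv_mul_cancel, φone]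
    have h2 : ∀ x, φ g⁻¹ (φ g x) = x := fun x => by simpa using LinearMap.congr_fun h1 x
    rw [← h2 x, ← h2 y, hxy]
  let a : ℕ → Module.End K (Fin r → K) := fun n => if h : n < m then φ (s ⟨n, h⟩) else 1
  have av : ∀ n (h : n < m), a n = φ (s ⟨n, h⟩) := fun n h => by simp only [a, dif_pos h]
  have aw : ∀ n, ¬ n < m → a n = 1 := fun n h => by simp only [a, dif_neg h]
  have ha : Br a m := by
    refine ⟨fun n => ?_, fun p q hpq => ?_, fun n hn => ?_⟩
    · by_cases h : n < m
      · rw [av n h]
        exact φinj _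
      · rw [aw n h]
        exact fun x y hxy => hxy
    · by_cases hq : q < m
      · rw [av q hq, av p (by omega), ← φmul, ← φmul, hs.far ⟨p, by omega⟩ ⟨q, hq⟩ hpq]
      · rw [aw q hq, mul_one, one_mul]
    · rw [av n (by omega), av (n + 1) hn, ← φmul, ← φmul, ← φmul, ← φmul,
        hs.near ⟨n, by omega⟩ ⟨n + 1, hn⟩ rfl]
  have hconst := Br.const r (Fin r → K) (by simp) m a hr ha
  have h0 : ∀ n (h : n < m), ρ (s ⟨n, h⟩) = ρ (s ⟨0, by omega⟩) := by
    intro n
    induction n with
    | zero => intro _; rfl
    | succ n ih =>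
      intro h
      have h1 := hconst n h
      rw [av n (by omega), av (n + 1) h] at h1
      have h2 : (ρ (s ⟨n, by omega⟩) : Matrix (Fin r) (Fin r) K) = ρ (s ⟨n + 1, h⟩) :=
        Matrix.toLin'.injective h1
      rw [← ih (by omega)]
      exact (Units.ext h2).symm
  rw [h0 i i.2, h0 j j.2]

/-- **Small representations of a chain.** All elements of the chain have the same image. -/
theorem const_of_chain {K : Type*} [Field K] {G : Type*} [Group G]
    {m r : ℕ} {s : Fin m → G} (hs : IsBraidChain s) (hr : r + 2 ≤ m)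
    (ρ : G →* GL (Fin r) K) (i j : Fin m) : ρ (s i) = ρ (s j) := by
  have h := const_of_chain_closed (K := AlgebraicClosure K) hs hr
    ((Matrix.GeneralLinearGroup.map (algebraMap K (AlgebraicClosure K))).comp ρ) i j
  refine Units.ext (Matrix.ext fun p q => ?_)
  have h1 := congrArg (fun M : GL (Fin r) (AlgebraicClosure K) => M.1 p q) h
  exact (algebraMap K (AlgebraicClosure K)).injective (by simpa using h1)

/-- the images of the chain commute with everything -/
theorem central_of_chain {K : Type*} [Field K] {G : Type*} [Group G]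
    {m r : ℕ} {s : Fin m → G} (hs : IsBraidChain s) (hC : GeneratedByCommuting s)
    (hr : r + 2 ≤ m) (ρ : G →* GL (Fin r) K) (i : Fin m) (g : G) :
    ρ (s i) * ρ g = ρ g * ρ (s i) := by
  have h1 : Subgroup.closure {t : G | ∃ i, t * s i = s i * t} ≤
      (Subgroup.centralizer {ρ (s i)}).comap ρ := by
    rw [Subgroup.closure_le]
    rintro t ⟨j, hj⟩
    rw [SetLike.mem_coe, Subgroup.mem_comap, Subgroup.mem_centralizer_singleton_iff,
      const_of_chain hs hr ρ i j, ← map_mul, ← map_mul, hj]
  have h2 : g ∈ (Subgroup.centralizer {ρ (s i)}).comap ρ := h1 (by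
    rw [hC]
    trivial)
  rw [Subgroup.mem_comap, Subgroup.mem_centralizer_singleton_iff] at h2
  exact h2.symm

/-- if the elements of the chain have central images, the image of the group is virtually
solvable -/
theorem image_virtSolvable {G P : Type*} [Group G] [Group P] {m : ℕ} {s : Fin m → G}
    (hD : VirtSolvableQuotient s) (f : G →* P) (hf : ∀ i g, f (s i) * f g = f g * f (s i)) :
    ∃ A : Subgroup P, A ≤ f.range ∧ Group.IsSolvable A ∧ A.relIndex f.range ≠ 0 := by
  obtain ⟨H, hH, hHf⟩ := hD
  set N := Subgroup.normalClosure (Set.range s) with hN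
  have hNc : ∀ x ∈ N, ∀ g, f x * f g = f g * f x := by
    let Z : Subgroup G := (Subgroup.centralizer (f.range : Set P)).comap f
    have hZ : ∀ x, x ∈ Z ↔ ∀ g, f g * f x = f x * f g := by
      intro x
      rw [Subgroup.mem_comap, Subgroup.mem_centralizer_iff]
      exact ⟨fun h g => h _ ⟨g, rfl⟩, fun h y ⟨g, hg⟩ => hg ▸ h g⟩
    have hZn : Z.Normal := by
      refine ⟨fun x hx g => ?_⟩
      rw [hZ] at hx ⊢
      intro y
      have h1 : f (g * x * g⁻¹) = f x := by
        rw [map_mul, map_mul, hx g, mul_assoc, ← map_mul, mul_inv_cancel, map_one, mul_one]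
      rw [h1]
      exact hx y
    have hle : N ≤ Z := Subgroup.normalClosure_le_normal (by
      rintro _ ⟨i, rfl⟩
      rw [SetLike.mem_coe, hZ]
      exact fun g => (hf i g).symm)
    intro x hx g
    exact ((hZ x).1 (hle hx) g).symm
  let H' : Subgroup G := H.comap (QuotientGroup.mk' N)
  have hH'f : H'.FiniteIndex := by
    refine ⟨?_⟩
    rw [Subgroup.index_comap_of_surjective _ (QuotientGroup.mk'_surjective N)]
    exact hHf.index_ne_zero
  obtain ⟨n, hn⟩ := hH.solvable
  refine ⟨H'.map f, Subgroup.map_le_range _ _, ⟨⟨n + 1, ?_⟩⟩, ?_⟩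
  · let g : H' →* H'.map f := f.subgroupMap H'
    have hg : Function.Surjective g := f.subgroupMap_surjective H'
    let q : H' →* H := (QuotientGroup.mk' N).subgroupComap H
    have hc : ∀ x ∈ derivedSeries (H'.map f) n, ∀ y : H'.map f, x * y = y * x := by
      intro x hx y
      rw [← map_derivedSeries_eq hg] at hx
      obtain ⟨x, hx, rfl⟩ := hx
      obtain ⟨y, rfl⟩ := hg y
      have h1 : q x ∈ derivedSeries H n := map_derivedSeries_le_derivedSeries q n ⟨x, hx, rfl⟩
      rw [hn, Subgroup.mem_bot] at h1
      have h2 : QuotientGroup.mk' N (x : G) = 1 := congrArg Subtype.val h1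
      have h3 : (x : G) ∈ N := (QuotientGroup.eq_one_iff _).1 h2
      exact Subtype.ext (hNc _ h3 _)
    rw [derivedSeries_succ, eq_bot_iff, Subgroup.commutator_le]
    intro x hx y _
    rw [Subgroup.mem_bot, commutatorElement_eq_one_iff_mul_comm]
    exact hc x hx y
  · rw [← Subgroup.index_comap]
    have h1 : H' ≤ (H'.map f).comap f := Subgroup.le_comap_map _ _
    exact (Subgroup.finiteIndex_of_le h1).index_ne_zero

end Vale.Agent.P002.R2.H543
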