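import Vale.Agent.P002.H326J.J10
import Vale.Agent.P002.R2.H543.Chain

/-!
# Groups with a braid chain: density of integral points in small rank
-/

namespace Vale.Agent.P002.R2.H543

open Matrix NumberField Vale.Agent.P002R.Orb Vale.Agent.P002.H326J

variable {ι : Type} {r : ℕ}

/-- integral representations are integral points -/
theorem point_of_rep {L : IntermediateField ℚ ℂ} {R : Set (FreeGroup ι)}
    {X : ι → SpecialLinearGroup (Fin r) ℂ} (h : IsIntegralRep L X) : IsIntegralPoint R L X := by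
  intro F _
  choose a ha using h
  let φ : 𝓞 L →+* ℂ := (algebraMap L ℂ).comp (algebraMap (𝓞 L) L)
  refine ⟨MvPolynomial.eval₂ (algebraMap ℤ (𝓞 L)) (fun p => a p.1 p.2.1 p.2.2) F, ?_⟩
  have h1 : φ.comp (algebraMap ℤ (𝓞 L)) = algebraMap ℤ ℂ := RingHom.ext_int _ _
  rw [value, ← h1]
  change _ = φ _
  rw [MvPolynomial.hom_eval₂]
  congr 1
  funext p
  exact ha _ _ _

theorem dense_of_denseRep {L : IntermediateField ℚ ℂ} {R : Set (FreeGroup ι)}
    {T : Set (ι → SpecialLinearGroup (Fin r) ℂ)} (h : IsDenseRep L T) : IsDense R L T :=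
  fun F _ hF X hX => h F (fun X' hX' hX'' => hF X' hX' (point_of_rep hX'')) X hX

/-- The elements of the chain become equal and central. -/
def CentralRels {m : ℕ} (u : Fin m → FreeGroup ι) : Set (FreeGroup ι) :=
  {v | (∃ i, ∃ x : FreeGroup ι, v = u i * x * (u i)⁻¹ * x⁻¹) ∨ ∃ i j, v = u i * (u j)⁻¹}

/-- **Reduction.** In small rank the points are those of the group in which the chain is constant
and central. -/
theorem yw_central (R : Set (FreeGroup ι)) {m : ℕ} (u : Fin m → FreeGroup ι)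
    (hB : IsBraidChain fun i => PresentedGroup.mk R (u i))
    (hC : GeneratedByCommuting fun i => PresentedGroup.mk R (u i)) (hr : r + 2 ≤ m) {s : ℕ}
    (w : Fin s → FreeGroup ι) (C₀ : Fin s → SpecialLinearGroup (Fin r) ℂ) :
    YW R w C₀ = YW (R ∪ CentralRels u) w C₀ := by
  ext X
  constructor
  · rintro ⟨⟨hX, hss⟩, hcl⟩
    refine ⟨⟨?_, hss⟩, hcl⟩
    let f : PresentedGroup R →* SpecialLinearGroup (Fin r) ℂ :=
      PresentedGroup.toGroup (f := X) (rels := R) hX
    have hf : ∀ x, f (PresentedGroup.mk R x) = FreeGroup.lift X x := fun x => rfl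
    rintro v (hv | ⟨i, x, rfl⟩ | ⟨i, j, rfl⟩)
    · exact hX v hv
    · have h1 := central_of_chain hB hC hr (SpecialLinearGroup.toGL.comp f) i
        (PresentedGroup.mk R x)
      have h2 : FreeGroup.lift X (u i) * FreeGroup.lift X x =
          FreeGroup.lift X x * FreeGroup.lift X (u i) := by
        rw [← hf, ← hf]
        have h2 := congrArg (fun M : GL (Fin r) ℂ => M.1) h1
        refine Subtype.ext ?_
        simpa using h2
      rw [map_mul, map_mul, map_mul, h2, map_inv, map_inv]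
      group
    · have h1 := const_of_chain hB hr (SpecialLinearGroup.toGL.comp f) i j
      have h2 : FreeGroup.lift X (u i) = FreeGroup.lift X (u j) := by
        rw [← hf, ← hf]
        have h2 := congrArg (fun M : GL (Fin r) ℂ => M.1) h1
        refine Subtype.ext ?_
        simpa using h2
      rw [map_mul, map_inv, h2, mul_inv_cancel]
  · rintro ⟨⟨hX, hss⟩, hcl⟩
    exact ⟨⟨fun v hv => hX v (Or.inl hv), hss⟩, hcl⟩

/-- In small rank the monodromy of all points is virtually solvable. -/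
theorem yv_eq_yw (R : Set (FreeGroup ι)) {G : Type*} [Group G] (e : PresentedGroup R ≃* G)
    {m : ℕ} {c : Fin m → G} (hB : IsBraidChain c) (hC : GeneratedByCommuting c)
    (hD : VirtSolvableQuotient c) (hr : r + 2 ≤ m) {s : ℕ} (w : Fin s → FreeGroup ι)
    (C₀ : Fin s → SpecialLinearGroup (Fin r) ℂ) : YV R w C₀ = YW R w C₀ := by
  refine Set.Subset.antisymm (fun X hX => hX.1) fun X hX => ⟨hX, ?_⟩
  have hrel : ∀ c ∈ R, FreeGroup.lift X c = 1 := hX.1.1
  let f : PresentedGroup R →* SpecialLinearGroup (Fin r) ℂ := PresentedGroup.toGroup hrel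
  have hf : f.range = Subgroup.closure (Set.range X) := by
    rw [← FreeGroup.range_lift_eq_closure]
    ext g
    constructor
    · rintro ⟨x, rfl⟩
      obtain ⟨y, rfl⟩ := QuotientGroup.mk_surjective x
      exact ⟨y, rfl⟩
    · rintro ⟨y, rfl⟩
      exact ⟨QuotientGroup.mk y, rfl⟩
  let g : G →* SpecialLinearGroup (Fin r) ℂ := f.comp e.symm.toMonoidHom
  have hg : g.range = Subgroup.closure (Set.range X) := by
    rw [← hf]
    ext x
    constructor
    · rintro ⟨y, rfl⟩
      exact ⟨e.symm y, rfl⟩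
    · rintro ⟨y, rfl⟩
      exact ⟨e y, by simp [g]⟩
  have hcen : ∀ i x, g (c i) * g x = g x * g (c i) := by
    intro i x
    have h1 := central_of_chain hB hC hr (SpecialLinearGroup.toGL.comp g) i x
    have h2 := congrArg (fun M : GL (Fin r) ℂ => M.1) h1
    refine Subtype.ext ?_
    simpa using h2
  obtain ⟨A, hA, hA1, hA2⟩ := image_virtSolvable hD g hcen
  rw [hg] at hA hA2
  exact ⟨A, hA, hA1, hA2⟩

/-- **Potential density.** -/
theorem chain_dense [Finite ι] (R : Set (FreeGroup ι)) {G : Type*} [Group G]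
    (e : PresentedGroup R ≃* G) {m : ℕ} {c : Fin m → G} (hB : IsBraidChain c)
    (hC : GeneratedByCommuting c) (hD : VirtSolvableQuotient c) (hr : r + 2 ≤ m) {s : ℕ}
    (w : Fin s → FreeGroup ι) (C₀ : Fin s → SpecialLinearGroup (Fin r) ℂ)
    (hQ : ∀ j z, IsEigenvalue (C₀ j) z → ∃ n : ℕ, 0 < n ∧ z ^ n = 1) :
    ∃ L : IntermediateField ℚ ℂ, FiniteDimensional ℚ L ∧
      IsDense R L (YW R w C₀) ∧ IsDenseRep L (YW R w C₀) := by
  obtain ⟨L, hL, h⟩ := vs_dense R w C₀ hQ
  rw [yv_eq_yw R e hB hC hD hr w C₀] at h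
  exact ⟨L, hL, dense_of_denseRep h, h⟩

end Vale.Agent.P002.R2.H543
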