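import Mathlib

/-!
# The centralizer of an endomorphism with one-dimensional eigenspaces is commutative
-/

namespace Vale.Agent.P002.R2.H543

open Module Polynomial

universe u v

theorem exists_poly {K : Type u} [Field K] [IsAlgClosed K] {V : Type v} [AddCommGroup V]
    [Module K V] [FiniteDimensional K V] {f A : Module.End K V}
    (hf : ∀ μ, finrank K (Module.End.eigenspace f μ) ≤ 1) (hA : A * f = f * A) :
    ∀ (n : ℕ) (U : Submodule K V), finrank K U = n → (∀ x ∈ U, f x ∈ U) →
      ∃ p : K[X], ∀ x ∈ U, A x = aeval f p x := by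
  intro n
  induction n using Nat.strong_induction_on with
  | _ n ih =>
    intro U hU hfU
    by_cases hU0 : U = ⊥
    · refine ⟨0, fun x hx => ?_⟩
      rw [hU0, Submodule.mem_bot] at hx
      rw [hx, map_zero, map_zero]
    obtain ⟨μ, w, hwU, hw0, hw⟩ : ∃ (μ : K) (w : V), w ∈ U ∧ w ≠ 0 ∧ f w = μ • w := by
      have : Nontrivial U := Submodule.nontrivial_iff_ne_bot.2 hU0
      obtain ⟨μ, hμ⟩ := Module.End.exists_eigenvalue (f.restrict hfU)
      obtain ⟨w, hw⟩ := hμ.exists_hasEigenvector
      refine ⟨μ, w, w.2, fun h => hw.2 (Subtype.ext h), ?_⟩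
      exact congrArg Subtype.val hw.apply_eq_smul
    obtain ⟨q, hN, x, hxU, hx⟩ : ∃ q : K[X],
        (∀ x ∈ U, f (aeval f q x) = μ • aeval f q x) ∧ ∃ x ∈ U, aeval f q x ≠ 0 := by
      let P : ℕ → Prop := fun n => ∃ q : K[X], q ≠ 0 ∧ q.natDegree = n ∧
        ∀ x ∈ U, aeval f q x = 0
      have hP : ∃ n, P n := ⟨_, minpoly K f, minpoly.ne_zero (Algebra.IsIntegral.isIntegral f),
        rfl, fun x _ => by rw [minpoly.aeval]; rfl⟩
      classical
      obtain ⟨q, hq0, hqn, hq⟩ := Nat.find_spec hP
      have hmin : ∀ k, k < Nat.find hP → ¬ P k := fun k hk => Nat.find_min hP hk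
      have hroot : q.IsRoot μ := by
        have h1 : aeval f q w = q.eval μ • w :=
          Module.End.aeval_apply_of_hasEigenvector ⟨Module.End.mem_eigenspace_iff.2 hw, hw0⟩
        rw [hq w hwU] at h1
        rcases smul_eq_zero.1 h1.symm with h | h
        · exact h
        · exact absurd h hw0
      obtain ⟨q', hq'⟩ := Polynomial.dvd_iff_isRoot.2 hroot
      refine ⟨q', fun x hx => ?_, ?_⟩
      · have h1 := hq x hx
        rw [hq', map_mul] at h1
        have h2 : f (aeval f q' x) - μ • aeval f q' x = 0 := by simpa using h1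
        exact sub_eq_zero.1 h2
      · by_contra hcon
        push Not at hcon
        have hq'0 : q' ≠ 0 := by
          rintro rfl
          rw [mul_zero] at hq'
          exact hq0 hq'
        refine hmin q'.natDegree ?_ ⟨q', hq'0, rfl, hcon⟩
        rw [← hqn, hq', Polynomial.natDegree_mul (Polynomial.X_sub_C_ne_zero μ) hq'0,
          Polynomial.natDegree_X_sub_C]
        omega
    have hline : ∀ z, f z = μ • z → ∃ c : K, z = c • aeval f q x := by
      obtain ⟨v, hv⟩ := finrank_le_one_iff.1 (hf μ)
      intro z hz
      obtain ⟨c, hc⟩ := hv ⟨z, Module.End.mem_eigenspace_iff.2 hz⟩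
      obtain ⟨e, he⟩ := hv ⟨aeval f q x, Module.End.mem_eigenspace_iff.2 (hN x hxU)⟩
      have hc' : c • (v : V) = z := congrArg Subtype.val hc
      have he' : e • (v : V) = aeval f q x := congrArg Subtype.val he
      have he0 : e ≠ 0 := by
        rintro rfl
        rw [zero_smul] at he'
        exact hx he'.symm
      refine ⟨c * e⁻¹, ?_⟩
      rw [← he', smul_smul, mul_assoc, inv_mul_cancel₀ he0, mul_one, hc']
    let g : Module.End K V := f - μ • (1 : Module.End K V)
    have hg : ∀ y, g y = f y - μ • y := fun y => by simp [g]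
    have hgU : ∀ y ∈ U, g y ∈ U := fun y hy => by
      rw [hg]
      exact U.sub_mem (hfU y hy) (U.smul_mem μ hy)
    have hrank : finrank K (U.map g) + 1 = n := by
      have h1 := LinearMap.finrank_range_add_finrank_ker (g.domRestrict U)
      rw [LinearMap.range_domRestrict, hU] at h1
      have h2 : finrank K (LinearMap.ker (g.domRestrict U)) = 1 := by
        apply le_antisymm
        · refine le_trans ?_ (hf μ)
          let j : LinearMap.ker (g.domRestrict U) →ₗ[K] Module.End.eigenspace f μ :=
            { toFun := fun y => ⟨((y : U) : V), by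
                have h3 : g ((y : U) : V) = 0 := y.2
                rw [hg] at h3
                exact Module.End.mem_eigenspace_iff.2 (sub_eq_zero.1 h3)⟩
              map_add' := fun _ _ => rfl
              map_smul' := fun _ _ => rfl }
          refine LinearMap.finrank_le_finrank_of_injective (f := j) fun y z hyz => ?_
          have h4 : ((j y : Module.End.eigenspace f μ) : V) = j z := congrArg Subtype.val hyz
          exact Subtype.ext (Subtype.ext h4)
        · rw [Submodule.one_le_finrank_iff, Submodule.ne_bot_iff]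
          refine ⟨⟨w, hwU⟩, ?_, fun h => hw0 (congrArg Subtype.val h)⟩
          change g w = 0
          rw [hg, hw, sub_self]
      omega
    have hcomm : ∀ y, A (f y) = f (A y) := fun y => by simpa using LinearMap.congr_fun hA y
    have hpc : ∀ (p : K[X]) y, aeval f p (f y) = f (aeval f p y) := fun p y => by
      have h1 : aeval f p * f = f * aeval f p := by
        have h2 : aeval f (p * X) = aeval f (X * p) := by rw [mul_comm]
        simpa using h2
      simpa using LinearMap.congr_fun h1 y
    obtain ⟨p, hp⟩ := ih (finrank K (U.map g)) (by omega) (U.map g) rfl (by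
      rintro _ ⟨y, hy, rfl⟩
      refine ⟨f y, hfU y hy, ?_⟩
      rw [hg, hg, map_sub, map_smul])
    have hBW : ∀ y ∈ U, f (A y - aeval f p y) = μ • (A y - aeval f p y) := by
      intro y hy
      have h1 := hp (g y) ⟨y, hy, rfl⟩
      rw [hg, map_sub, map_sub, map_smul, map_smul, hcomm, hpc] at h1
      rw [map_sub, smul_sub]
      exact sub_eq_sub_iff_sub_eq_sub.1 h1
    have hNg : ∀ y ∈ U, aeval f q (g y) = 0 := by
      intro y hy
      rw [hg, map_sub, map_smul, hpc, hN y hy, sub_self]
    obtain ⟨c, hc⟩ := hline (A x - aeval f p x) (hBW x hxU)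
    have hxn : x ∉ U.map g := by
      rintro ⟨y, hy, hyx⟩
      apply hx
      rw [← hyx]
      exact hNg y hy
    have hle : U.map g ⊔ Submodule.span K {x} ≤ U := by
      refine sup_le ?_ ?_
      · rintro _ ⟨y, hy, rfl⟩
        exact hgU y hy
      · rw [Submodule.span_singleton_le_iff_mem]
        exact hxU
    have hlt : U.map g < U.map g ⊔ Submodule.span K {x} := by
      refine lt_of_le_of_ne le_sup_left fun h => hxn ?_
      rw [h]
      exact Submodule.mem_sup_right (Submodule.mem_span_singleton_self x)
    have heq : U.map g ⊔ Submodule.span K {x} = U := by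
      refine Submodule.eq_of_le_of_finrank_le hle ?_
      have := Submodule.finrank_lt_finrank_of_lt hlt
      omega
    refine ⟨p + C c * q, fun y hy => ?_⟩
    rw [← heq] at hy
    obtain ⟨y', hy', z, hz, rfl⟩ := Submodule.mem_sup.1 hy
    obtain ⟨t, rfl⟩ := Submodule.mem_span_singleton.1 hz
    have hy'q : aeval f q y' = 0 := by
      obtain ⟨u, hu, rfl⟩ := hy'
      exact hNg u hu
    have hAx : A x = aeval f p x + c • aeval f q x := by
      rw [← hc]
      abel
    have h3 : ∀ u, aeval f (p + C c * q) u = aeval f p u + c • aeval f q u := by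
      intro u
      rw [map_add, map_mul, aeval_C]
      simp
    rw [map_add, map_smul, hp y' hy', hAx, h3, map_add, map_add, hy'q, map_smul, map_smul, zero_add,
      smul_add, smul_comm c t]
    abel

/-- elements of the centralizer of an endomorphism with one-dimensional eigenspaces commute -/
theorem comm_of_small {K : Type u} [Field K] [IsAlgClosed K] {V : Type v} [AddCommGroup V]
    [Module K V] [FiniteDimensional K V] {f A B : Module.End K V}
    (hf : ∀ μ, finrank K (Module.End.eigenspace f μ) ≤ 1) (hA : A * f = f * A)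
    (hB : B * f = f * B) : A * B = B * A := by
  obtain ⟨p, hp⟩ := exists_poly hf hA _ ⊤ rfl (fun _ _ => trivial)
  obtain ⟨q, hq⟩ := exists_poly hf hB _ ⊤ rfl (fun _ _ => trivial)
  have hp' : A = aeval f p := LinearMap.ext fun x => hp x trivial
  have hq' : B = aeval f q := LinearMap.ext fun x => hq x trivial
  rw [hp', hq', ← map_mul, ← map_mul, mul_comm]

end Vale.Agent.P002.R2.H543
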