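import Vale.Agent.P002.R2.H543.Braid

/-!
# Braid relations for scalar plus rank one
-/

namespace Vale.Agent.P002.R2.H543

open Module

universe u v

variable {K : Type u} [Field K] {V : Type v} [AddCommGroup V] [Module K V]

theorem near_expand (μ : K) (b c : Module.End K V)
    (h : (μ • 1 + b) * (μ • 1 + c) * (μ • 1 + b) = (μ • 1 + c) * (μ • 1 + b) * (μ • 1 + c)) :
    (μ ^ 2) • (b - c) + μ • (b * b - c * c) + (b * (c * b) - c * (b * c)) = 0 := by
  have key : (μ ^ 2) • (b - c) + μ • (b * b - c * c) + (b * (c * b) - c * (b * c)) =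
      (μ • 1 + b) * (μ • 1 + c) * (μ • 1 + b) - (μ • 1 + c) * (μ • 1 + b) * (μ • 1 + c) := by
    simp only [add_mul, mul_add, smul_mul_assoc, mul_smul_comm, one_mul, mul_one, mul_assoc]
    module
  rw [key, h, sub_self]

/-- if `c b = 0` for neighbours, they are equal -/
theorem eq_of_mul_zero {μ t : K} (hμ : μ ≠ 0) {b c : Module.End K V}
    (hinj : Function.Injective (μ • (1 : Module.End K V) + b))
    (hinj' : Function.Injective (μ • (1 : Module.End K V) + c))
    (h : (μ • 1 + b) * (μ • 1 + c) * (μ • 1 + b) = (μ • 1 + c) * (μ • 1 + b) * (μ • 1 + c))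
    (hb : b * b = t • b) (hc : c * c = t • c) (hcb : c * b = 0) : b = c := by
  have h1 := near_expand μ b c h
  have hbc0 : c * (b * c) = 0 := by rw [← mul_assoc, hcb, zero_mul]
  rw [hcb, hbc0, mul_zero, sub_zero, add_zero, hb, hc] at h1
  -- `h1 : μ ^ 2 • (b - c) + μ • (t • b - t • c) = 0`
  have h2 : (μ * (μ + t)) • (b - c) = 0 := by
    rw [← h1]
    module
  rcases smul_eq_zero.1 h2 with h3 | h3
  · rcases mul_eq_zero.1 h3 with h4 | h4
    · exact absurd h4 hμ
    · have h5 : ∀ x : Module.End K V, x * x = t • x →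
          Function.Injective (μ • (1 : Module.End K V) + x) → x = 0 := by
        intro x hx hxi
        refine LinearMap.ext fun y => hxi ?_
        have h6 : (μ • (1 : Module.End K V) + x) * x = 0 := by
          rw [add_mul, smul_mul_assoc, one_mul, hx, ← add_smul, h4, zero_smul]
        have h7 := LinearMap.congr_fun h6 y
        rw [Module.End.mul_apply] at h7
        rw [h7]
        simp
      rw [h5 b hb hinj, h5 c hc hinj']
  · exact sub_eq_zero.1 h3

/-- **Scalar plus rank one.** -/
theorem Br.refl [FiniteDimensional K V] {a : ℕ → Module.End K V} {m d : ℕ} (h : Br a m)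
    (hd : finrank K V = d) (hd2 : 2 ≤ d) (hm : d + 2 ≤ m) {μ : K}
    (hW : finrank K (Module.End.eigenspace (a 0) μ) + 1 = d) : a 0 = a 1 := by
  by_contra hne
  have hall : ∀ k, k + 1 < m → a k ≠ a (k + 1) := fun k hk hk' => hne (h.all hk' hk 0 (by omega))
  -- `μ ≠ 0`
  have hμ : μ ≠ 0 := by
    rintro rfl
    have hW1 : Module.End.eigenspace (a 0) (0 : K) ≠ ⊥ := by
      rw [← Submodule.one_le_finrank_iff]
      omega
    obtain ⟨w, hw, hw0⟩ := (Submodule.ne_bot_iff _).1 hW1
    rw [Module.End.mem_eigenspace_iff, zero_smul] at hw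
    exact hw0 (h.inj 0 (by rw [hw, map_zero]))
  let b : ℕ → Module.End K V := fun i => a i - μ • 1
  have hab : ∀ i, a i = μ • 1 + b i := fun i => by
    change a i = μ • 1 + (a i - μ • 1)
    abel
  have hbx : ∀ i x, b i x = a i x - μ • x := fun i x => by simp [b]
  -- rank one and quadratic relation
  have hrk0 : ∃ v, ∀ x, ∃ c : K, b 0 x = c • v := by
    have h1 := LinearMap.finrank_range_add_finrank_ker (b 0)
    have h2 : LinearMap.ker (b 0) = Module.End.eigenspace (a 0) μ := by
      ext x
      rw [LinearMap.mem_ker, hbx, Module.End.mem_eigenspace_iff, sub_eq_zero]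
    rw [h2] at h1
    obtain ⟨v, hv⟩ := finrank_le_one_iff.1 (show finrank K (LinearMap.range (b 0)) ≤ 1 by omega)
    refine ⟨v, fun x => ?_⟩
    obtain ⟨c, hc⟩ := hv ⟨b 0 x, ⟨x, rfl⟩⟩
    exact ⟨c, (congrArg Subtype.val hc).symm⟩
  obtain ⟨t, ht0⟩ : ∃ t : K, ∀ x, b 0 (b 0 x) = t • b 0 x := by
    obtain ⟨v, hv⟩ := hrk0
    obtain ⟨t, ht⟩ := hv v
    refine ⟨t, fun x => ?_⟩
    obtain ⟨c, hc⟩ := hv x
    rw [hc, map_smul, ht, smul_comm]
  have hP : ∀ i, i < m → (∃ v, ∀ x, ∃ c : K, b i x = c • v) ∧ ∀ x, b i (b i x) = t • b i x := by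
    intro i
    induction i with
    | zero => exact fun _ => ⟨hrk0, ht0⟩
    | succ i ih =>
      intro hi
      obtain ⟨⟨v, hv⟩, hq⟩ := ih (by omega)
      let g : Module.End K V := a i * a (i + 1)
      have hgs : Function.Surjective g := by
        rw [← LinearMap.injective_iff_surjective]
        intro x y hxy
        exact h.inj _ (h.inj _ hxy)
      have hga : ∀ x, a (i + 1) (g x) = g (a i x) := fun x =>
        (LinearMap.congr_fun (h.near i hi) x).symm
      have hgb : ∀ x, b (i + 1) (g x) = g (b i x) := fun x => by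
        rw [hbx, hbx, hga, map_sub, map_smul]
      refine ⟨⟨g v, fun x => ?_⟩, fun x => ?_⟩
      · obtain ⟨y, rfl⟩ := hgs x
        obtain ⟨c, hc⟩ := hv y
        exact ⟨c, by rw [hgb, hc, map_smul]⟩
      · obtain ⟨y, rfl⟩ := hgs x
        rw [hgb, hgb, hq, map_smul]
  have hbinj : ∀ i, Function.Injective (μ • (1 : Module.End K V) + b i) := fun i => by
    rw [← hab]
    exact h.inj i
  -- neighbours
  have hnb : ∀ k, k + 1 < m → ∃ x, b (k + 1) (b k x) ≠ 0 := by
    intro k hk
    by_contra hcon
    push Not at hcon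
    apply hall k hk
    have h1 : b k = b (k + 1) := by
      refine eq_of_mul_zero (t := t) hμ (hbinj k) (hbinj (k + 1)) ?_ ?_ ?_ ?_
      · rw [← hab, ← hab]
        exact h.near k hk
      · exact LinearMap.ext fun x => by simpa using (hP k (by omega)).2 x
      · exact LinearMap.ext fun x => by simpa using (hP (k + 1) hk).2 x
      · exact LinearMap.ext fun x => by simpa using hcon x
    rw [hab k, hab (k + 1), h1]
  -- far pairs are different
  have hfne : ∀ i j, i + 2 ≤ j → j < m → a i ≠ a j := by
    intro i j hij hj heq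
    by_cases h1 : i + 3 ≤ j
    · refine hall i (by omega) (eq_of_commute (h.inj _) (h.inj _) ?_ (h.near i (by omega)))
      rw [heq]
      exact (h.far (i + 1) j (by omega)).symm
    · have hj2 : j = i + 2 := by omega
      subst hj2
      by_cases h2 : i + 3 < m
      · refine hall (i + 2) h2 (eq_of_commute (h.inj _) (h.inj _) ?_ (h.near (i + 2) h2))
        rw [← heq]
        exact h.far i (i + 3) (by omega)
      · obtain ⟨k, rfl⟩ : ∃ k, i = k + 1 := ⟨i - 1, by omega⟩
        refine hall k (by omega) (eq_of_commute (h.inj _) (h.inj _) ?_ (h.near k (by omega)))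
        rw [heq]
        exact h.far k (k + 3) (by omega)
  have hfar : ∀ i j, i + 2 ≤ j → j < m → ∀ x, b j (b i x) = 0 := by
    intro i j hij hj x
    by_contra hcon
    apply hfne i j hij hj
    have hcom : ∀ y, b i (b j y) = b j (b i y) := by
      intro y
      have h1 : a i (a j y) = a j (a i y) := LinearMap.congr_fun (h.far i j hij) y
      rw [hbx, hbx, hbx, hbx, map_sub, map_sub, map_smul, map_smul, h1]
      module
    obtain ⟨⟨v, hv⟩, hqi⟩ := hP i (by omega)
    obtain ⟨⟨v', hv'⟩, hqj⟩ := hP j hj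
    set p := b j (b i x) with hp
    have line : ∀ (u : V) (β : Module.End K V), (∀ y, ∃ c : K, β y = c • u) → (∃ z, β z = p) →
        ∀ y, ∃ c : K, β y = c • p := by
      rintro u β hβ ⟨z, hz⟩ y
      obtain ⟨c, hc⟩ := hβ y
      obtain ⟨e, he⟩ := hβ z
      rw [hz] at he
      have he0 : e ≠ 0 := by
        rintro rfl
        rw [zero_smul] at he
        exact hcon he
      refine ⟨c * e⁻¹, ?_⟩
      rw [he, smul_smul, mul_assoc, inv_mul_cancel₀ he0, mul_one, hc]
    have hi := line v (b i) hv ⟨b j x, by rw [hcom]⟩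
    have hj' := line v' (b j) hv' ⟨b i x, rfl⟩
    have hip : b i p = t • p := by
      rw [hp, ← hcom, hqi]
    have hjp : b j p = t • p := by
      rw [hp, hqj]
    have ht : t ≠ 0 := by
      rintro rfl
      obtain ⟨c, hc⟩ := hi x
      have h1 : p = c • b j p := by
        conv_lhs => rw [hp, hc, map_smul]
      rw [hjp, zero_smul, smul_zero] at h1
      exact hcon h1
    have hbb : ∀ y, b i y = b j y := by
      intro y
      obtain ⟨α, hα⟩ := hi y
      obtain ⟨β, hβ⟩ := hj' y
      have h1 := hcom y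
      rw [hα, hβ, map_smul, map_smul, hip, hjp, smul_smul, smul_smul] at h1
      have h2 : (β * t - α * t) • p = 0 := by rw [sub_smul, h1, sub_self]
      rcases smul_eq_zero.1 h2 with h3 | h3
      · have h4 : (β - α) * t = 0 := by rw [sub_mul, h3]
        rcases mul_eq_zero.1 h4 with h5 | h5
        · rw [hα, hβ, sub_eq_zero.1 h5]
        · exact absurd h5 ht
      · exact absurd h3 hcon
    rw [hab i, hab j, LinearMap.ext hbb]
  -- an increasing chain of subspaces
  obtain ⟨U, hU0, hUs⟩ : ∃ U : ℕ → Submodule K V, U 0 = ⊥ ∧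
      ∀ k, U (k + 1) = U k ⊔ LinearMap.range (b k) :=
    ⟨fun k => Nat.rec (motive := fun _ => Submodule K V) ⊥
      (fun k W => W ⊔ LinearMap.range (b k)) k, rfl, fun _ => rfl⟩
  have hUker : ∀ j, j < m → ∀ k, k < j → U k ≤ LinearMap.ker (b j) := by
    intro j hj k
    induction k with
    | zero =>
      intro _
      rw [hU0]
      exact bot_le
    | succ k ih =>
      intro hk
      rw [hUs]
      refine sup_le (ih (by omega)) ?_
      rintro _ ⟨x, rfl⟩
      exact hfar k j (by omega) hj x
  have hUrk : ∀ k, k + 1 ≤ m → k ≤ finrank K (U k) := by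
    intro k
    induction k with
    | zero => intro _; omega
    | succ k ih =>
      intro hk
      have h1 : U k < U (k + 1) := by
        refine lt_of_le_of_ne (by rw [hUs]; exact le_sup_left) fun heq => ?_
        obtain ⟨x, hx⟩ := hnb k (by omega)
        apply hx
        have h2 : b k x ∈ U k := by
          rw [heq, hUs]
          exact Submodule.mem_sup_right ⟨x, rfl⟩
        exact hUker (k + 1) (by omega) k (by omega) h2
      have := Submodule.finrank_lt_finrank_of_lt h1
      have := ih (by omega)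
      omega
  have h1 := hUrk (m - 1) (by omega)
  have h2 := Submodule.finrank_le (U (m - 1))
  omega

end Vale.Agent.P002.R2.H543
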