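import Vale.Agent.P002.H2.N7
import Vale.Agent.P002.R2.H543.Density

/-!
# Braid chains: the relative form over families of maps to orbifold curves
-/

namespace Vale.Agent.P002.R2.H543

open Matrix NumberField Vale.Agent.P002R.Orb Vale.Agent.P002.H326J Vale.Agent.P002.H2

/-- The image of `K` in the quotient by the normal closure of the chain is virtually solvable. -/
def VirtSolvableImage {G : Type*} [Group G] {m : ℕ} (s : Fin m → G) (K : Subgroup G) : Prop :=
  ∃ H : Subgroup (G ⧸ Subgroup.normalClosure (Set.range s)),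
    H ≤ K.map (QuotientGroup.mk' (Subgroup.normalClosure (Set.range s))) ∧ Group.IsSolvable H ∧
      H.relIndex (K.map (QuotientGroup.mk' (Subgroup.normalClosure (Set.range s)))) ≠ 0

/-- elements of the normal closure of the chain have central images -/
theorem central_normalClosure {G P : Type*} [Group G] [Group P] {m : ℕ} {s : Fin m → G}
    (f : G →* P) (hf : ∀ i g, f (s i) * f g = f g * f (s i)) :
    ∀ x ∈ Subgroup.normalClosure (Set.range s), ∀ g, f x * f g = f g * f x := by
  let Z : Subgroup G := (Subgroup.centralizer (f.range : Set P)).comap f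
  have hZ : ∀ x, x ∈ Z ↔ ∀ g, f g * f x = f x * f g := by
    intro x
    rw [Subgroup.mem_comap, Subgroup.mem_centralizer_iff]
    exact ⟨fun h g => h _ ⟨g, rfl⟩, fun h y ⟨g, hg⟩ => hg ▸ h g⟩
  have hZn : Z.Normal := by
    refine ⟨fun x hx g => ?_⟩
    rw [hZ] at hx ⊢
    intro y
    have h1 : f (g * x * g⁻¹) = f x := by
      rw [map_mul, map_mul, hx g, mul_assoc, ← map_mul, mul_inv_cancel, map_one, mul_one]
    rw [h1]
    exact hx y
  have hle : Subgroup.normalClosure (Set.range s) ≤ Z := Subgroup.normalClosure_le_normal (by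
    rintro _ ⟨i, rfl⟩
    rw [SetLike.mem_coe, hZ]
    exact fun g => (hf i g).symm)
  intro x hx g
  exact ((hZ x).1 (hle hx) g).symm

/-- if the elements of the chain have central images, the image of `K` is virtually solvable -/
theorem image_rel {G P : Type*} [Group G] [Group P] {m : ℕ} {s : Fin m → G} {K : Subgroup G}
    (hD : VirtSolvableImage s K) (f : G →* P) (hf : ∀ i g, f (s i) * f g = f g * f (s i)) :
    ∃ A : Subgroup P, A ≤ K.map f ∧ Group.IsSolvable A ∧ A.relIndex (K.map f) ≠ 0 := by
  obtain ⟨H, -, hH, hidx⟩ := hD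
  have hNc := central_normalClosure f hf
  set N := Subgroup.normalClosure (Set.range s) with hN
  let B : Subgroup G := K ⊓ H.comap (QuotientGroup.mk' N)
  obtain ⟨n, hn⟩ := hH.solvable
  refine ⟨B.map f, Subgroup.map_mono inf_le_left, ⟨⟨n + 1, ?_⟩⟩, ?_⟩
  · let g : B →* B.map f := f.subgroupMap B
    have hg : Function.Surjective g := f.subgroupMap_surjective B
    let q : B →* H := ((QuotientGroup.mk' N).comp B.subtype).codRestrict H fun x => x.2.2
    have hc : ∀ x ∈ derivedSeries (B.map f) n, ∀ y : B.map f, x * y = y * x := by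
      intro x hx y
      rw [← map_derivedSeries_eq hg] at hx
      obtain ⟨x, hx, rfl⟩ := hx
      obtain ⟨y, rfl⟩ := hg y
      have h1 : q x ∈ derivedSeries H n := map_derivedSeries_le_derivedSeries q n ⟨x, hx, rfl⟩
      rw [hn, Subgroup.mem_bot] at h1
      have h2 : QuotientGroup.mk' N (x : G) = 1 := congrArg Subtype.val h1
      have h3 : (x : G) ∈ N := (QuotientGroup.eq_one_iff _).1 h2
      exact Subtype.ext (hNc _ h3 _)
    rw [derivedSeries_succ, eq_bot_iff, Subgroup.commutator_le]
    intro x hx y _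
    rw [Subgroup.mem_bot, commutatorElement_eq_one_iff_mul_comm]
    exact hc x hx y
  · intro h0
    rw [← Subgroup.relIndex_comap] at h0
    have h1 : B ≤ (B.map f).comap f := Subgroup.le_comap_map _ _
    have h2 : B.relIndex K = 0 := Subgroup.relIndex_eq_zero_of_le_left h1 h0
    apply hidx
    rw [← Subgroup.relIndex_comap, ← Subgroup.inf_relIndex_left]
    exact h2

variable {ι : Type} {r : ℕ}

/-- In small rank the image of `K` is virtually solvable for all points. -/
theorem yker_eq_yw (R : Set (FreeGroup ι)) {m : ℕ} {c : Fin m → PresentedGroup R}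
    (hB : IsBraidChain c) (hC : GeneratedByCommuting c) {K : Subgroup (PresentedGroup R)}
    (hD : VirtSolvableImage c K) (hr : r + 2 ≤ m) {s : ℕ}
    (w : Fin s → FreeGroup ι) (C₀ : Fin s → SpecialLinearGroup (Fin r) ℂ) :
    YKer R w C₀ K = YW R w C₀ := by
  refine Set.Subset.antisymm (fun X hX => hX.1) fun X hX => ⟨hX, ?_⟩
  have hrel : ∀ c ∈ R, FreeGroup.lift X c = 1 := hX.1.1
  let f : PresentedGroup R →* SpecialLinearGroup (Fin r) ℂ := PresentedGroup.toGroup hrel
  have hcomp : f.comp (PresentedGroup.mk R) = FreeGroup.lift X := rfl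
  have hmap : (K.comap (PresentedGroup.mk R)).map (FreeGroup.lift X) = K.map f := by
    rw [← hcomp, ← Subgroup.map_map, Subgroup.map_comap_eq_self_of_surjective (mk_surj R)]
  rw [hmap]
  refine image_rel hD f fun i x => ?_
  have h1 := central_of_chain hB hC hr (SpecialLinearGroup.toGL.comp f) i x
  have h2 := congrArg (fun M : GL (Fin r) ℂ => M.1) h1
  refine Subtype.ext ?_
  simpa using h2

/-- **Potential density, relative form.** -/
theorem rel_dense [Finite ι] (R : Set (FreeGroup ι)) (O : OrbFamily (PresentedGroup R)) {m : ℕ}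
    {c : Fin m → PresentedGroup R} (hB : IsBraidChain c) (hC : GeneratedByCommuting c)
    (hD : VirtSolvableImage c O.K) (hr : r + 2 ≤ m) {s : ℕ}
    (w : Fin s → FreeGroup ι) (C₀ : Fin s → SpecialLinearGroup (Fin r) ℂ)
    (hQ : ∀ j z, IsEigenvalue (C₀ j) z → ∃ n : ℕ, 0 < n ∧ z ^ n = 1)
    (hw : ∀ j, O.IsPeripheral (PresentedGroup.mk R (w j))) :
    ∃ L : IntermediateField ℚ ℂ, FiniteDimensional ℚ L ∧
      IsDense R L (YW R w C₀) ∧ IsDenseRep L (YW R w C₀) := by
  obtain ⟨L, hL, h⟩ := main_T O r w C₀ hQ hw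
  rw [yker_eq_yw R hB hC hD hr w C₀] at h
  exact ⟨L, hL, dense_of_denseRep h, h⟩

end Vale.Agent.P002.R2.H543
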