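import Vale.Agent.P002.R2.H543.Poly
import Vale.Agent.P002.R2.H543.Refl

/-!
# Braid relations in small dimension

A sequence of injective endomorphisms `a 0, a 1, …` of a vector space of dimension `d` over an
algebraically closed field, with the braid relations for the first `m ≥ d + 2` of them, is constant
there.
-/

namespace Vale.Agent.P002.R2.H543

open Module

universe u v

/-- **Braid relations in small dimension.** -/
theorem Br.const {K : Type u} [Field K] [IsAlgClosed K] (d : ℕ) :
    ∀ (V : Type v) [AddCommGroup V] [Module K V] [FiniteDimensional K V],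
      finrank K V = d → ∀ (m : ℕ) (a : ℕ → Module.End K V), d + 2 ≤ m → Br a m →
        ∀ i, i + 1 < m → a i = a (i + 1) := by
  induction d using Nat.strong_induction_on with
  | _ d ih =>
    intro V _ _ _ hd m a hm ha
    rcases Nat.eq_zero_or_pos d with rfl | hd0
    · intro i _
      have : Subsingleton V := finrank_zero_iff.1 hd
      exact LinearMap.ext fun x => Subsingleton.elim _ _
    have hnt : Nontrivial V := nontrivial_of_finrank_pos (R := K) (by omega)
    -- small eigenspaces
    by_cases hsm : ∀ μ, finrank K (Module.End.eigenspace (a 0) μ) ≤ 1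
    · rcases Nat.lt_or_ge d 2 with hd2 | hd2
      · -- dimension one
        obtain ⟨v, hv⟩ := finrank_le_one_iff.1 (show finrank K V ≤ 1 by omega)
        refine ha.all (k := 0) (eq_of_commute (ha.inj _) (ha.inj _) ?_ (ha.near 0 (by omega)))
          (by omega)
        refine LinearMap.ext fun x => ?_
        obtain ⟨c, rfl⟩ := hv x
        obtain ⟨e, he⟩ := hv (a 0 v)
        obtain ⟨g, hg⟩ := hv (a 1 v)
        rw [Module.End.mul_apply, Module.End.mul_apply, map_smul, map_smul, map_smul, map_smul,
          ← he, ← hg, map_smul, map_smul, ← he, ← hg, smul_comm e g]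
      · refine ha.all (k := 2) (eq_of_commute (ha.inj _) (ha.inj _) ?_ (ha.near 2 (by omega)))
          (by omega)
        exact comm_of_small hsm (ha.far 0 2 (by omega)).symm (ha.far 0 3 (by omega)).symm
    push Not at hsm
    obtain ⟨μ, hμ⟩ := hsm
    set W := Module.End.eigenspace (a 0) μ with hW
    by_cases hWt : W = ⊤
    · have hsc : ∀ x, a 0 x = μ • x := fun x =>
        Module.End.mem_eigenspace_iff.1 (by rw [← hW, hWt]; trivial)
      refine ha.all (k := 0) ?_ (by omega)
      refine eq_of_commute (ha.inj _) (ha.inj _) ?_ (ha.near 0 (by omega))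
      refine LinearMap.ext fun x => ?_
      simp [hsc]
    have hWlt : finrank K W < d := by
      rw [← hd]
      exact Submodule.finrank_lt hWt
    by_cases hrefl : finrank K W + 1 = d
    · exact ha.all (k := 0) (ha.refl hd (by omega) hm hrefl) (by omega)
    have hQ : finrank K (V ⧸ W) + finrank K W = d := by
      rw [← hd]
      exact W.finrank_quotient_add_finrank
    have hinv : ∀ j, ∀ x ∈ W, a (j + 2) x ∈ W := by
      intro j x hx
      rw [hW, Module.End.mem_eigenspace_iff] at hx ⊢
      have h1 : a 0 (a (j + 2) x) = a (j + 2) (a 0 x) := by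
        simpa using LinearMap.congr_fun (ha.far 0 (j + 2) (by omega)) x
      rw [h1, hx, map_smul]
    refine ha.all (k := 2) ?_ (by omega)
    -- restriction to `W`
    let b : ℕ → Module.End K W := fun j => (a (j + 2)).restrict (hinv j)
    have hbv : ∀ j (x : W), ((b j x : W) : V) = a (j + 2) x := fun j x => rfl
    have hb : Br b (m - 2) := by
      refine ⟨fun j x y hxy => ?_, fun i j hij => ?_, fun i hi => ?_⟩
      · have := congrArg Subtype.val hxy
        rw [hbv, hbv] at this
        exact Subtype.ext (ha.inj _ this)
      · refine LinearMap.ext fun x => Subtype.ext ?_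
        simpa [hbv] using LinearMap.congr_fun (ha.far (i + 2) (j + 2) (by omega)) (x : V)
      · refine LinearMap.ext fun x => Subtype.ext ?_
        simpa [hbv] using LinearMap.congr_fun (ha.near (i + 2) (by omega)) (x : V)
    have hbc := ih (finrank K W) hWlt W rfl (m - 2) b (by omega) hb
    -- quotient by `W`
    let c : ℕ → Module.End K (V ⧸ W) := fun j => W.mapQ W (a (j + 2)) (fun x hx => hinv j x hx)
    have hcv : ∀ j (x : V), c j (Submodule.Quotient.mk x) =
        Submodule.Quotient.mk (a (j + 2) x) := fun j x => rfl
    have hc : Br c (m - 2) := by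
      refine ⟨fun j => ?_, fun i j hij => ?_, fun i hi => ?_⟩
      · rw [LinearMap.injective_iff_surjective]
        intro y
        obtain ⟨y, rfl⟩ := Submodule.Quotient.mk_surjective W y
        obtain ⟨x, hx⟩ := (LinearMap.injective_iff_surjective.1 (ha.inj (j + 2))) y
        exact ⟨Submodule.Quotient.mk x, by rw [hcv, hx]⟩
      · refine LinearMap.ext fun x => ?_
        obtain ⟨x, rfl⟩ := Submodule.Quotient.mk_surjective W x
        have := LinearMap.congr_fun (ha.far (i + 2) (j + 2) (by omega)) x
        simp only [Module.End.mul_apply] at this ⊢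
        rw [hcv, hcv, hcv, hcv, this]
      · refine LinearMap.ext fun x => ?_
        obtain ⟨x, rfl⟩ := Submodule.Quotient.mk_surjective W x
        have := LinearMap.congr_fun (ha.near (i + 2) (by omega)) x
        simp only [Module.End.mul_apply] at this ⊢
        rw [hcv, hcv, hcv, hcv, hcv, hcv]
        exact congrArg _ this
    have hcc := ih (finrank K (V ⧸ W)) (by omega) (V ⧸ W) rfl (m - 2) c (by omega) hc
    have onW : ∀ j, j + 1 < m - 2 → ∀ x ∈ W, a (j + 2) x = a (j + 3) x := by
      intro j hj x hx
      have := congrArg Subtype.val (LinearMap.congr_fun (hbc j hj) ⟨x, hx⟩)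
      exact this
    have modW : ∀ j, j + 1 < m - 2 → ∀ x, a (j + 2) x - a (j + 3) x ∈ W := by
      intro j hj x
      have := LinearMap.congr_fun (hcc j hj) (Submodule.Quotient.mk x)
      rw [hcv, hcv] at this
      exact (Submodule.Quotient.eq W).1 this
    refine eq_of_agree W (z := a 5) (ha.inj _) (ha.far 2 5 (by omega)) (ha.far 3 5 (by omega))
      (ha.near 2 (by omega)) ?_ ?_ ?_ ?_
    · intro x hx
      rw [onW 0 (by omega) x hx, onW 1 (by omega) x hx, onW 2 (by omega) x hx]
    · intro x hx
      rw [onW 1 (by omega) x hx, onW 2 (by omega) x hx]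
    · intro x
      have h0 := modW 0 (by omega) x
      have h1 := modW 1 (by omega) x
      have h2 := modW 2 (by omega) x
      have := W.add_mem (W.add_mem h0 h1) h2
      simpa using this
    · intro x
      have h1 := modW 1 (by omega) x
      have h2 := modW 2 (by omega) x
      have := W.add_mem h1 h2
      simpa using this

end Vale.Agent.P002.R2.H543
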