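import Vale.Agent.P002.R2.H543.Chain

/-!
# Braid groups of surfaces
-/

namespace Vale.Agent.P002.R2.H543

open commutatorElement

/-- Generators of the braid group of `m + 1` strands on a surface of genus `g` with `p` additional
generators for punctures: `inl i = σ_i`, `inr (inl (l, false)) = a_l`, `inr (inl (l, true)) = b_l`,
`inr (inr j) = z_j`. -/
abbrev BGens (m g p : ℕ) := Fin m ⊕ ((Fin g × Bool) ⊕ Fin p)

/-- The relations of Bellingeri's presentation that do not depend on whether the surface is closed:
the braid relations and, with `s = σ_0`, the relations (R1)-(R8). -/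
inductive IsBRel (m g p : ℕ) : FreeGroup (BGens m g p) → FreeGroup (BGens m g p) → Prop
  | near (i j : Fin m) (h : (i : ℕ) + 1 = j) :
      IsBRel m g p (.of (.inl i) * .of (.inl j) * .of (.inl i))
        (.of (.inl j) * .of (.inl i) * .of (.inl j))
  | far (i j : Fin m) (h : (i : ℕ) + 2 ≤ j) :
      IsBRel m g p (.of (.inl i) * .of (.inl j)) (.of (.inl j) * .of (.inl i))
  | loop (i : Fin m) (h : (i : ℕ) ≠ 0) (x : (Fin g × Bool) ⊕ Fin p) :
      IsBRel m g p (.of (.inr x) * .of (.inl i)) (.of (.inl i) * .of (.inr x))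
  | same (i : Fin m) (h : (i : ℕ) = 0) (x : (Fin g × Bool) ⊕ Fin p) :
      IsBRel m g p ((.of (.inl i))⁻¹ * .of (.inr x) * (.of (.inl i))⁻¹ * .of (.inr x))
        (.of (.inr x) * (.of (.inl i))⁻¹ * .of (.inr x) * (.of (.inl i))⁻¹)
  | handles (i : Fin m) (h : (i : ℕ) = 0) (k l : Fin g) (hkl : k < l) (e e' : Bool) :
      IsBRel m g p ((.of (.inl i))⁻¹ * .of (.inr (.inl (k, e))) * .of (.inl i) *
          .of (.inr (.inl (l, e'))))
        (.of (.inr (.inl (l, e'))) * (.of (.inl i))⁻¹ * .of (.inr (.inl (k, e))) * .of (.inl i))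
  | handle (i : Fin m) (h : (i : ℕ) = 0) (l : Fin g) :
      IsBRel m g p ((.of (.inl i))⁻¹ * .of (.inr (.inl (l, false))) * (.of (.inl i))⁻¹ *
          .of (.inr (.inl (l, true))))
        (.of (.inr (.inl (l, true))) * (.of (.inl i))⁻¹ * .of (.inr (.inl (l, false))) *
          .of (.inl i))
  | puncture (i : Fin m) (h : (i : ℕ) = 0) (j : Fin p) (y : Fin g × Bool) :
      IsBRel m g p ((.of (.inl i))⁻¹ * .of (.inr (.inr j)) * .of (.inl i) * .of (.inr (.inl y)))
        (.of (.inr (.inl y)) * (.of (.inl i))⁻¹ * .of (.inr (.inr j)) * .of (.inl i))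
  | punctures (i : Fin m) (h : (i : ℕ) = 0) (j k : Fin p) (hjk : j < k) :
      IsBRel m g p ((.of (.inl i))⁻¹ * .of (.inr (.inr j)) * .of (.inl i) * .of (.inr (.inr k)))
        (.of (.inr (.inr k)) * (.of (.inl i))⁻¹ * .of (.inr (.inr j)) * .of (.inl i))

/-- The relators `x y⁻¹` of `IsBRel`. -/
def BRels (m g p : ℕ) : Set (FreeGroup (BGens m g p)) :=
  {v | ∃ x y, IsBRel m g p x y ∧ v = x * y⁻¹}

variable {m g p : ℕ} {R : Set (FreeGroup (BGens m g p))}

/-- the chain of half-twists -/
def twists (m g p : ℕ) (i : Fin m) : FreeGroup (BGens m g p) := FreeGroup.of (Sum.inl i)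

theorem mk_eq (hR : BRels m g p ⊆ R) {x y : FreeGroup (BGens m g p)} (h : IsBRel m g p x y) :
    PresentedGroup.mk R x = PresentedGroup.mk R y := by
  have h1 : PresentedGroup.mk R (x * y⁻¹) = 1 :=
    PresentedGroup.one_of_mem (hR ⟨x, y, h, rfl⟩)
  rw [map_mul, map_inv, mul_inv_eq_one] at h1
  exact h1

theorem surf_chain (hR : BRels m g p ⊆ R) :
    IsBraidChain fun i => PresentedGroup.mk R (twists m g p i) := by
  refine ⟨fun i j h => ?_, fun i j h => ?_⟩
  · have := mk_eq hR (.near i j h)
    simp only [map_mul] at this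
    exact this
  · have := mk_eq hR (.far i j h)
    simp only [map_mul] at this
    exact this

theorem surf_gen (hm : 2 ≤ m) (hR : BRels m g p ⊆ R) :
    GeneratedByCommuting fun i => PresentedGroup.mk R (twists m g p i) := by
  unfold GeneratedByCommuting
  rw [eq_top_iff, ← PresentedGroup.closure_range_of, Subgroup.closure_le]
  rintro _ ⟨x, rfl⟩
  refine Subgroup.subset_closure ?_
  rcases x with i | x
  · exact ⟨i, rfl⟩
  · refine ⟨⟨1, by omega⟩, ?_⟩
    have := mk_eq hR (.loop ⟨1, by omega⟩ (by simp) x)
    simp only [map_mul] at this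
    exact this

/-- modulo the half-twists all generators commute -/
theorem surf_quot (hm : 1 ≤ m) (hR : BRels m g p ⊆ R) :
    VirtSolvableQuotient fun i => PresentedGroup.mk R (twists m g p i) := by
  set N := Subgroup.normalClosure (Set.range fun i => PresentedGroup.mk R (twists m g p i)) with hN
  let q : FreeGroup (BGens m g p) →* (PresentedGroup R ⧸ N) :=
    (QuotientGroup.mk' N).comp (PresentedGroup.mk R)
  have hq : ∀ {x y}, IsBRel m g p x y → q x = q y := fun h => by
    change QuotientGroup.mk' N _ = QuotientGroup.mk' N _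
    rw [mk_eq hR h]
  have hs : ∀ i, q (FreeGroup.of (Sum.inl i)) = 1 := by
    intro i
    refine (QuotientGroup.eq_one_iff _).2 ?_
    exact Subgroup.subset_normalClosure ⟨i, rfl⟩
  let i0 : Fin m := ⟨0, by omega⟩
  have hcom : ∀ x y : BGens m g p, q (.of x) * q (.of y) = q (.of y) * q (.of x) := by
    have hh : ∀ (k l : Fin g) (e e' : Bool), k < l →
        q (.of (.inr (.inl (k, e)))) * q (.of (.inr (.inl (l, e')))) =
          q (.of (.inr (.inl (l, e')))) * q (.of (.inr (.inl (k, e)))) := by
      intro k l e e' hkl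
      have := hq (.handles i0 rfl k l hkl e e')
      simpa [hs] using this
    have h1 : ∀ l : Fin g, q (.of (.inr (.inl (l, false)))) * q (.of (.inr (.inl (l, true)))) =
        q (.of (.inr (.inl (l, true)))) * q (.of (.inr (.inl (l, false)))) := by
      intro l
      have := hq (.handle i0 rfl l)
      simpa [hs] using this
    have hp : ∀ (j : Fin p) (y : Fin g × Bool),
        q (.of (.inr (.inr j))) * q (.of (.inr (.inl y))) =
          q (.of (.inr (.inl y))) * q (.of (.inr (.inr j))) := by
      intro j y
      have := hq (.puncture i0 rfl j y)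
      simpa [hs] using this
    have hpp : ∀ (j k : Fin p), j < k →
        q (.of (.inr (.inr j))) * q (.of (.inr (.inr k))) =
          q (.of (.inr (.inr k))) * q (.of (.inr (.inr j))) := by
      intro j k hjk
      have := hq (.punctures i0 rfl j k hjk)
      simpa [hs] using this
    rintro (i | ⟨k, e⟩ | j) (i' | ⟨l, e'⟩ | j')
    · rw [hs, hs]
    · rw [hs, one_mul, mul_one]
    · rw [hs, one_mul, mul_one]
    · rw [hs, one_mul, mul_one]
    · rcases lt_trichotomy k l with h | h | h
      · exact hh k l e e' h
      · subst h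
        cases e <;> cases e'
        · rfl
        · exact h1 k
        · exact (h1 k).symm
        · rfl
      · exact (hh l k e' e h).symm
    · exact (hp j' (k, e)).symm
    · rw [hs, one_mul, mul_one]
    · exact hp j (l, e')
    · rcases lt_trichotomy j j' with h | h | h
      · exact hpp j j' h
      · rw [h]
      · exact (hpp j' j h).symm
  have hall : ∀ x y : FreeGroup (BGens m g p), q x * q y = q y * q x := by
    intro x y
    have h2 : ∀ t : BGens m g p, ∀ y, q (.of t) * q y = q y * q (.of t) := by
      intro t y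
      induction y using FreeGroup.induction_on with
      | C1 => simp
      | of z => exact hcom t z
      | inv_of z ih =>
        rw [map_inv]
        have h3 : Commute (q (.of t)) (q (.of z)) := hcom t z
        exact h3.inv_right
      | mul y z ih1 ih2 =>
        rw [map_mul]
        have h3 : Commute (q (.of t)) (q y) := ih1
        have h4 : Commute (q (.of t)) (q z) := ih2
        exact h3.mul_right h4
    induction x using FreeGroup.induction_on with
    | C1 => simp
    | of z => exact h2 z y
    | inv_of z ih =>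
      rw [map_inv]
      have h3 : Commute (q (.of z)) (q y) := h2 z y
      exact h3.inv_left
    | mul x z ih1 ih2 =>
      rw [map_mul]
      have h3 : Commute (q x) (q y) := ih1
      have h4 : Commute (q z) (q y) := ih2
      exact h3.mul_left h4
  have hqs : Function.Surjective q := (QuotientGroup.mk'_surjective N).comp
    (QuotientGroup.mk_surjective)
  refine ⟨⊤, Group.isSolvable_of_comm ?_, inferInstance⟩
  rintro ⟨x, -⟩ ⟨y, -⟩
  obtain ⟨x, rfl⟩ := hqs x
  obtain ⟨y, rfl⟩ := hqs y
  exact Subtype.ext (hall x y)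

end Vale.Agent.P002.R2.H543
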