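import Vale.Agent.P002.R2.H543.Chain

/-!
# Wreath products with a symmetric group contain a co-central braid chain
-/

namespace Vale.Agent.P002.R2.H543

open SemidirectProduct

/-- The wreath product of `Gam` with the symmetric group on `n` points, which permutes the
coordinates. -/
abbrev Wr (Gam : Type*) [Group Gam] (n : ℕ) : Type _ :=
  (Fin n → Gam) ⋊[mulAutArrow] Equiv.Perm (Fin n)

/-- The adjacent transpositions of the wreath product. -/
def swaps (Gam : Type*) [Group Gam] (m : ℕ) : Fin m → Wr Gam (m + 1) :=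
  fun i => inr (Equiv.swap i.castSucc i.succ)

variable {Gam : Type*} [Group Gam]

/-- conjugating a one-coordinate element by a permutation moves the coordinate -/
theorem conj_single {n : ℕ} (σ : Equiv.Perm (Fin n)) (p : Fin n) (g : Gam) :
    (inr σ * inl (Pi.mulSingle p g) * inr σ⁻¹ : Wr Gam n) = inl (Pi.mulSingle (σ p) g) := by
  rw [← inl_aut, inl_inj]
  funext a
  change (Pi.mulSingle p g : Fin n → Gam) (σ⁻¹ a) = (Pi.mulSingle (σ p) g : Fin n → Gam) a
  by_cases h : a = σ p
  · subst h
    have h0 : σ⁻¹ (σ p) = p := σ.symm_apply_apply p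
    rw [h0, Pi.mulSingle_eq_same, Pi.mulSingle_eq_same]
  · have h1 : σ⁻¹ a ≠ p := fun h2 => h (by rw [← h2]; exact (σ.apply_symm_apply a).symm)
    rw [Pi.mulSingle_eq_of_ne h1, Pi.mulSingle_eq_of_ne h]

/-- a one-coordinate element commutes with the permutations which fix the coordinate -/
theorem commute_single {n : ℕ} (σ : Equiv.Perm (Fin n)) (p : Fin n) (hp : σ p = p) (g : Gam) :
    (inl (Pi.mulSingle p g) * inr σ : Wr Gam n) = inr σ * inl (Pi.mulSingle p g) := by
  have h := conj_single σ p g
  rw [hp, map_inv] at h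
  exact (mul_inv_eq_iff_eq_mul.1 h).symm

/-- a subgroup which contains all permutations and all one-coordinate elements is everything -/
theorem eq_top_of_mem {n : ℕ} (H : Subgroup (Wr Gam n)) (h1 : ∀ σ, inr σ ∈ H)
    (h2 : ∀ p g, inl (Pi.mulSingle p g) ∈ H) : H = ⊤ := by
  refine eq_top_iff.2 fun x _ => ?_
  rw [← inl_left_mul_inr_right x]
  refine H.mul_mem ?_ (h1 _)
  have h3 : x.left ∈ H.comap (inl : (Fin n → Gam) →* Wr Gam n) :=
    Subgroup.pi_mem_of_mulSingle_mem _ fun i => h2 i _
  exact h3

/-- the adjacent transpositions generate the permutations -/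
theorem inr_mem {m : ℕ} (H : Subgroup (Wr Gam (m + 1))) (h : ∀ i, swaps Gam m i ∈ H)
    (σ : Equiv.Perm (Fin (m + 1))) : (inr σ : Wr Gam (m + 1)) ∈ H := by
  have h1 : Submonoid.closure (Set.range fun i : Fin m => Equiv.swap i.castSucc i.succ) ≤
      (H.comap (inr : Equiv.Perm (Fin (m + 1)) →* Wr Gam (m + 1))).toSubmonoid := by
    rw [Submonoid.closure_le]
    rintro _ ⟨i, rfl⟩
    exact h i
  rw [Equiv.Perm.mclosure_swap_castSucc_succ] at h1
  exact h1 (Submonoid.mem_top σ)

theorem isBraidChain_swaps (Gam : Type*) [Group Gam] (m : ℕ) : IsBraidChain (swaps Gam m) := by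
  refine ⟨fun i j hij => ?_, fun i j hij => ?_⟩
  · have hj : j.castSucc = i.succ := Fin.ext (by simp [← hij])
    have h1 : j.succ ≠ i.succ := fun h => by
      have := congrArg Fin.val h
      simp at this
      omega
    have h2 : j.succ ≠ i.castSucc := fun h => by
      have := congrArg Fin.val h
      simp at this
      omega
    have h3 : i.castSucc ≠ i.succ := fun h => by
      have := congrArg Fin.val h
      simp at this
    simp only [swaps, ← map_mul, hj]
    congr 1
    rw [Equiv.swap_mul_swap_mul_swap h3 h2.symm, Equiv.swap_comm i.castSucc i.succ,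
      Equiv.swap_comm i.succ j.succ, Equiv.swap_mul_swap_mul_swap h1 h2, Equiv.swap_comm]
  · simp only [swaps, ← map_mul]
    congr 1
    refine (Equiv.Perm.disjoint_swap_swap ?_).commute
    simp only [List.nodup_cons, List.mem_cons, List.not_mem_nil, or_false, not_or, Fin.ext_iff,
      Fin.val_castSucc, Fin.val_succ, List.nodup_nil, not_false_eq_true, and_true]
    omega

theorem generatedByCommuting_swaps (Gam : Type*) [Group Gam] (m : ℕ) (hm : 2 ≤ m) :
    GeneratedByCommuting (swaps Gam m) := by
  rw [GeneratedByCommuting]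
  set H := Subgroup.closure {t : Wr Gam (m + 1) | ∃ i, t * swaps Gam m i = swaps Gam m i * t}
    with hH
  have h1 : ∀ σ, (inr σ : Wr Gam (m + 1)) ∈ H :=
    inr_mem H fun i => Subgroup.subset_closure ⟨i, rfl⟩
  have h2 : ∀ g : Gam, (inl (Pi.mulSingle 0 g) : Wr Gam (m + 1)) ∈ H := by
    intro g
    refine Subgroup.subset_closure ⟨⟨1, by omega⟩, commute_single _ 0 ?_ g⟩
    refine Equiv.swap_apply_of_ne_of_ne ?_ ?_
    · exact fun h => by simpa using congrArg Fin.val h
    · exact fun h => by simpa using congrArg Fin.val h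
  refine eq_top_of_mem H h1 fun p g => ?_
  have h3 := conj_single (Equiv.swap 0 p) (0 : Fin (m + 1)) g
  rw [Equiv.swap_apply_left] at h3
  rw [← h3]
  exact H.mul_mem (H.mul_mem (h1 _) (h2 g)) (h1 _)

/-- if the adjacent transpositions are trivial in the image, the image is commutative -/
theorem commute_of_swaps {P : Type*} [Group P] (m : ℕ) (hm : 2 ≤ m) (f : Wr Gam (m + 1) →* P)
    (hf : ∀ i, f (swaps Gam m i) = 1) (x y : Wr Gam (m + 1)) : f x * f y = f y * f x := by
  have h1 : ∀ σ, f (inr σ) = 1 := fun σ => inr_mem f.ker hf σ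
  have h2 : ∀ p q g, f (inl (Pi.mulSingle p g)) = f (inl (Pi.mulSingle q g)) := by
    intro p q g
    have h3 := congrArg f (conj_single (Equiv.swap p q) p g)
    rw [Equiv.swap_apply_left, map_mul, map_mul, h1, h1, one_mul, mul_one] at h3
    exact h3
  have h4 : ∀ p q g h, f (inl (Pi.mulSingle p g)) * f (inl (Pi.mulSingle q h)) =
      f (inl (Pi.mulSingle q h)) * f (inl (Pi.mulSingle p g)) := by
    intro p q g h
    have h5 : (0 : Fin (m + 1)) ≠ Fin.last m := fun h => by
      have := congrArg Fin.val h
      simp at this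
      omega
    rw [h2 p 0 g, h2 q (Fin.last m) h, ← map_mul, ← map_mul, ← map_mul, ← map_mul]
    have h6 := Pi.mulSingle_commute (f := fun _ : Fin (m + 1) => Gam) h5 g h
    rw [h6.eq]
  have h7 : ∀ (p : Fin (m + 1)) (g : Gam) (y : Wr Gam (m + 1)),
      f (inl (Pi.mulSingle p g)) * f y = f y * f (inl (Pi.mulSingle p g)) := by
    intro p g y
    have h8 : (Subgroup.centralizer {f (inl (Pi.mulSingle p g))}).comap f = ⊤ := by
      refine eq_top_of_mem _ (fun σ => ?_) fun q h => ?_
      · rw [Subgroup.mem_comap, h1]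
        exact Subgroup.one_mem _
      · rw [Subgroup.mem_comap, Subgroup.mem_centralizer_singleton_iff]
        exact h4 q p h g
    have h9 : y ∈ (Subgroup.centralizer {f (inl (Pi.mulSingle p g))}).comap f := by
      rw [h8]
      trivial
    rw [Subgroup.mem_comap, Subgroup.mem_centralizer_singleton_iff] at h9
    exact h9.symm
  have h10 : (Subgroup.centralizer {f y}).comap f = ⊤ := by
    refine eq_top_of_mem _ (fun σ => ?_) fun q h => ?_
    · rw [Subgroup.mem_comap, h1]
      exact Subgroup.one_mem _
    · rw [Subgroup.mem_comap, Subgroup.mem_centralizer_singleton_iff]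
      exact h7 q h y
  have h11 : x ∈ (Subgroup.centralizer {f y}).comap f := by
    rw [h10]
    trivial
  rw [Subgroup.mem_comap, Subgroup.mem_centralizer_singleton_iff] at h11
  exact h11

theorem virtSolvableQuotient_swaps (Gam : Type*) [Group Gam] (m : ℕ) (hm : 2 ≤ m) :
    VirtSolvableQuotient (swaps Gam m) := by
  refine ⟨⊤, ?_, inferInstance⟩
  refine Group.isSolvable_of_comm fun a b => Subtype.ext ?_
  obtain ⟨x, hx⟩ := QuotientGroup.mk'_surjective _ (a : Wr Gam (m + 1) ⧸
    Subgroup.normalClosure (Set.range (swaps Gam m)))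
  obtain ⟨y, hy⟩ := QuotientGroup.mk'_surjective _ (b : Wr Gam (m + 1) ⧸
    Subgroup.normalClosure (Set.range (swaps Gam m)))
  rw [Subgroup.coe_mul, Subgroup.coe_mul, ← hx, ← hy]
  refine commute_of_swaps m hm _ (fun i => ?_) x y
  exact (QuotientGroup.eq_one_iff _).2 (Subgroup.subset_normalClosure ⟨i, rfl⟩)

/-- **Wreath products.** For `m ≥ 2` the adjacent transpositions of the wreath product of any
group with the symmetric group on `m + 1` points form a co-central braid chain with virtually
solvable quotient. -/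
theorem wreath (Gam : Type*) [Group Gam] (m : ℕ) (hm : 2 ≤ m) :
    IsBraidChain (swaps Gam m) ∧ GeneratedByCommuting (swaps Gam m) ∧
      VirtSolvableQuotient (swaps Gam m) :=
  ⟨isBraidChain_swaps Gam m, generatedByCommuting_swaps Gam m hm,
    virtSolvableQuotient_swaps Gam m hm⟩

end Vale.Agent.P002.R2.H543
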